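/-
S0066 (row 47) — definitions of the construction (architect: helper5).

Blueprint: `notes/s0066_blueprint.md`.  `N = 2 ^ h`.

* `Line h`   : the `N * (66 + 19 h)` line descriptors (used both for rows and for columns).
* `M`        : the base matrix `Line h → Line h → Bool` (row first, column second).
* `Hpat`     : the fixed `66 × 66` pattern.
* a linear order on `Line h` (the layout), given by the lexicographic key `(k1, k2, k3, k4)`.

Only definitions and their immediate API live here; no `sorry`.
-/
import Mathlib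

set_option autoImplicit false

namespace Crest.Agent.Helper5.S0066

/-- Groups of threshold markers: the bottom group, and for every level `j + 1` (`j : Fin h`),
every case (`anyT = false` : rows top-layer / columns any; `anyT = true` : rows any / columns
top-layer) and every side (`side = false` : left child, `side = true` : right child) one group. -/
inductive Grp (h : ℕ)
  | bot
  | lvl (anyT : Bool) (j : Fin h) (side : Bool)
  deriving DecidableEq

/-- Line descriptors.  Payload lines: `Y` (universal), `leaf x`, `core j k y` (core line of kind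
`k` (`0 = Qs`, `1 = Q0`, `2 = Q1`) of the class of level `j + 1` containing the leaf `y`).
Marker lines: `Z`, `crown a`, `thr g θ`; the last index of a marker line (and of `Y`) is its
copy number `i : Fin (2 ^ h)`. -/
inductive Line (h : ℕ)
  | Y (i : Fin (2 ^ h))
  | Z (i : Fin (2 ^ h))
  | leaf (x : Fin (2 ^ h))
  | core (j : Fin h) (k : Fin 3) (y : Fin (2 ^ h))
  | crown (a : Fin 59) (i : Fin (2 ^ h))
  | thr (g : Grp h) (θ : Fin 4) (i : Fin (2 ^ h))
  deriving DecidableEq

variable {h : ℕ}

namespace Grp

/-- An injective numbering of the groups. -/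
def code : Grp h → ℕ
  | bot => 0
  | lvl anyT j side => 1 + 4 * j.val + 2 * anyT.toNat + side.toNat

theorem code_injective : Function.Injective (code (h := h)) := by
  intro g g' hgg
  cases g with
  | bot =>
    cases g' with
    | bot => rfl
    | lvl a j s => exfalso; simp only [code] at hgg; omega
  | lvl a j s =>
    cases g' with
    | bot => exfalso; simp only [code] at hgg; omega
    | lvl a' j' s' =>
      simp only [code] at hgg
      have ha : a.toNat ≤ 1 := Bool.toNat_le a
      have hs : s.toNat ≤ 1 := Bool.toNat_le s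
      have ha' : a'.toNat ≤ 1 := Bool.toNat_le a'
      have hs' : s'.toNat ≤ 1 := Bool.toNat_le s'
      have h1 : j.val = j'.val := by omega
      have h2 : a.toNat = a'.toNat := by omega
      have h3 : s.toNat = s'.toNat := by omega
      have hj : j = j' := Fin.ext h1
      have haa : a = a' := by
        cases a <;> cases a' <;> simp_all
      have hss : s = s' := by
        cases s <;> cases s' <;> simp_all
      subst hj haa hss
      rfl

/-- `Grp h ≃ Option (Bool × Fin h × Bool)`. -/
def equivOption : Grp h ≃ Option (Bool × Fin h × Bool) where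
  toFun
    | bot => none
    | lvl a j s => some (a, j, s)
  invFun
    | none => bot
    | some (a, j, s) => lvl a j s
  left_inv g := by cases g <;> rfl
  right_inv o := by
    cases o with
    | none => rfl
    | some p => rfl

instance : Fintype (Grp h) := Fintype.ofEquiv _ equivOption.symm

theorem card : Fintype.card (Grp h) = 4 * h + 1 := by
  rw [Fintype.card_congr equivOption]
  simp [Fintype.card_option, Fintype.card_prod]
  ring

end Grp

/-! ### Thresholds -/

/-- Thresholds of a "top-layer" side of the group of level `j + 1` and side `s`: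
`(low, tb, tb + 1, tb + 2)` with `tb = 3 j + 1 + s`, `low = 0` if `j = 0`, else `3 j - 2`. -/
def thT (j : ℕ) (s : Bool) (θ : Fin 4) : ℤ :=
  if θ.val = 0 then (if j = 0 then 0 else 3 * (j : ℤ) - 2)
  else 3 * (j : ℤ) + 1 + (s.toNat : ℤ) + ((θ.val : ℤ) - 1)

/-- Thresholds of an "any" side: `(-1, tb, tb + 1, tb + 2)`. -/
def thA (j : ℕ) (s : Bool) (θ : Fin 4) : ℤ :=
  if θ.val = 0 then -1
  else 3 * (j : ℤ) + 1 + (s.toNat : ℤ) + ((θ.val : ℤ) - 1)

/-- Thresholds of the bottom group: `(-1, -1, 0, 1)`. -/
def thBot (θ : Fin 4) : ℤ := if θ.val ≤ 1 then -1 else (θ.val : ℤ) - 2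

/-- `thF g θ`: a payload ROW of rank `ρ` is adjacent to the marker COLUMN `thr g θ` iff
`thF g θ ≤ ρ`. -/
def thF : Grp h → Fin 4 → ℤ
  | .bot, θ => thBot θ
  | .lvl false j s, θ => thT j.val s θ
  | .lvl true j s, θ => thA j.val s θ

/-- `thG g θ`: a payload COLUMN of rank `ρ` is adjacent to the marker ROW `thr g θ` iff
`thG g θ ≤ ρ`. -/
def thG : Grp h → Fin 4 → ℤ
  | .bot, θ => thBot θ
  | .lvl false j s, θ => thA j.val s θ
  | .lvl true j s, θ => thT j.val s θ

namespace Line

/-- Payload lines: `Y`, `leaf`, `core`. -/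
def isPay : Line h → Bool
  | Y _ => true
  | leaf _ => true
  | core _ _ _ => true
  | _ => false

/-- Tree lines: `leaf`, `core`. -/
def isTree : Line h → Bool
  | leaf _ => true
  | core _ _ _ => true
  | _ => false

/-- Rank of a payload line: `Y ↦ -1`, `leaf ↦ 0`, `core j k ↦ 3 j + 1 + k`
(junk value `-2` on marker lines). -/
def rank : Line h → ℤ
  | Y _ => -1
  | leaf _ => 0
  | core j k _ => 3 * (j.val : ℤ) + 1 + (k.val : ℤ)
  | _ => -2

/-- Level of a tree line: `leaf ↦ 0`, `core j ↦ j + 1` (junk `0` otherwise). -/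
def lvl : Line h → ℕ
  | core j _ _ => j.val + 1
  | _ => 0

/-- The leaf a tree line is attached to (junk `0` otherwise). -/
def pos : Line h → ℕ
  | leaf x => x.val
  | core _ _ y => y.val
  | _ => 0

/-- Two tree lines are comparable when their classes are nested: the level-`max` ancestors of the
attached leaves coincide. -/
def nest (p q : Line h) : Bool :=
  decide (p.pos / 2 ^ max p.lvl q.lvl = q.pos / 2 ^ max p.lvl q.lvl)

/-- Lexicographic layout key, first component: the region. -/
def k1 : Line h → ℕ
  | Y _ => 0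
  | Z _ => 1
  | leaf _ => 2
  | core _ _ _ => 2
  | crown _ _ => 3
  | thr _ _ _ => 4

/-- Second component.  Tree region: twice the boundary at which a core type sits
(`Qs` at the left end, `Q0` at the midpoint, `Q1` at the right end of its class),
`2 x + 1` for the leaf `x`. -/
def k2 : Line h → ℕ
  | Y _ => 0
  | Z _ => 0
  | leaf x => 2 * x.val + 1
  | core j k y =>
      2 * (y.val / 2 ^ (j.val + 1) * 2 ^ (j.val + 1)
        + (if k.val = 0 then 0 else if k.val = 1 then 2 ^ j.val else 2 ^ (j.val + 1)))
  | crown a _ => a.val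
  | thr g _ _ => g.code

/-- Third component.  At one boundary of the tree region: the `Q1`'s ending there by increasing
level (values `j + 1 ∈ [1, h]`), then the `Q0` centred there (value `h + j + 1 ∈ [h + 1, 2 h]`),
then the `Qs`'s starting there by decreasing level (values `3 h - j ∈ [2 h + 1, 3 h]`). -/
def k3 : Line h → ℕ
  | Y _ => 0
  | Z _ => 0
  | leaf _ => 0
  | core j k _ =>
      if k.val = 0 then 3 * h - j.val else if k.val = 1 then h + j.val + 1 else j.val + 1
  | crown _ _ => 0
  | thr _ θ _ => θ.val

/-- Fourth component: the index inside the type. -/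
def k4 : Line h → ℕ
  | Y i => i.val
  | Z i => i.val
  | leaf _ => 0
  | core _ _ y => y.val
  | crown _ i => i.val
  | thr _ _ i => i.val

/-- The layout key. -/
def key (l : Line h) : ℕ ×ₗ ℕ ×ₗ ℕ ×ₗ ℕ :=
  toLex (l.k1, toLex (l.k2, toLex (l.k3, l.k4)))

theorem key_injective : Function.Injective (key (h := h)) := by
  intro a b hab
  have hab' : (a.k1, toLex (a.k2, toLex (a.k3, a.k4))) = (b.k1, toLex (b.k2, toLex (b.k3, b.k4))) :=
    toLex.injective hab
  have h1 : a.k1 = b.k1 := congrArg Prod.fst hab'
  have hab2 : (a.k2, toLex (a.k3, a.k4)) = (b.k2, toLex (b.k3, b.k4)) :=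
    toLex.injective (congrArg Prod.snd hab')
  have h2 : a.k2 = b.k2 := congrArg Prod.fst hab2
  have hab3 : (a.k3, a.k4) = (b.k3, b.k4) := toLex.injective (congrArg Prod.snd hab2)
  have h3 : a.k3 = b.k3 := congrArg Prod.fst hab3
  have h4 : a.k4 = b.k4 := congrArg Prod.snd hab3
  cases a with
  | Y i =>
    cases b <;> simp only [k1] at h1 <;> try omega
    simp only [k4] at h4
    rw [Fin.ext h4]
  | Z i =>
    cases b <;> simp only [k1] at h1 <;> try omega
    simp only [k4] at h4
    rw [Fin.ext h4]
  | leaf x =>
    cases b with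
    | leaf x' =>
      simp only [k2] at h2
      have : x = x' := Fin.ext (by omega)
      rw [this]
    | core j k y =>
      exfalso
      simp only [k2] at h2
      omega
    | _ => simp only [k1] at h1; omega
  | core j k y =>
    cases b with
    | leaf x' =>
      exfalso
      simp only [k2] at h2
      omega
    | core j' k' y' =>
      simp only [k4] at h4
      simp only [k3] at h3
      have hj := j.isLt
      have hj' := j'.isLt
      have hk := k.isLt
      have hk' := k'.isLt
      have hy : y = y' := Fin.ext h4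
      have hjk : j.val = j'.val ∧ k.val = k'.val := by
        have hkc : k.val = 0 ∨ k.val = 1 ∨ k.val = 2 := by omega
        have hkc' : k'.val = 0 ∨ k'.val = 1 ∨ k'.val = 2 := by omega
        rcases hkc with hk0 | hk0 | hk0 <;> rcases hkc' with hk0' | hk0' | hk0' <;>
          simp only [hk0, hk0', if_true, if_false, one_ne_zero, OfNat.ofNat_ne_zero,
            OfNat.ofNat_ne_one] at h3 <;> omega
      have hjj : j = j' := Fin.ext hjk.1
      have hkk : k = k' := Fin.ext hjk.2
      subst hy hjj hkk
      rfl
    | _ => simp only [k1] at h1; omega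
  | crown a i =>
    cases b <;> simp only [k1] at h1 <;> try omega
    simp only [k4] at h4
    simp only [k2] at h2
    rw [Fin.ext h4, Fin.ext h2]
  | thr g θ i =>
    cases b <;> simp only [k1] at h1 <;> try omega
    simp only [k4] at h4
    simp only [k2] at h2
    simp only [k3] at h3
    rw [Fin.ext h4, Fin.ext h3, Grp.code_injective h2]

/-- The layout order. -/
instance : LinearOrder (Line h) := LinearOrder.lift' key key_injective

theorem lt_iff_key {a b : Line h} : a < b ↔ a.key < b.key := Iff.rfl

theorem le_iff_key {a b : Line h} : a ≤ b ↔ a.key ≤ b.key := Iff.rfl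

/-- Unfolded characterisation of `<`. -/
theorem lt_iff {a b : Line h} :
    a < b ↔ a.k1 < b.k1 ∨ (a.k1 = b.k1 ∧ (a.k2 < b.k2 ∨ (a.k2 = b.k2 ∧
      (a.k3 < b.k3 ∨ (a.k3 = b.k3 ∧ a.k4 < b.k4))))) := by
  rw [lt_iff_key]
  simp only [key, Prod.Lex.toLex_lt_toLex]

/-- Unfolded characterisation of `≤`. -/
theorem le_iff {a b : Line h} :
    a ≤ b ↔ a.k1 < b.k1 ∨ (a.k1 = b.k1 ∧ (a.k2 < b.k2 ∨ (a.k2 = b.k2 ∧
      (a.k3 < b.k3 ∨ (a.k3 = b.k3 ∧ a.k4 ≤ b.k4))))) := by
  rw [le_iff_key]
  simp only [key, Prod.Lex.toLex_le_toLex]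

/-- `Line h` as an explicit sum of products, for counting. -/
def equivSum : Line h ≃
    (Fin (2 ^ h) ⊕ Fin (2 ^ h) ⊕ Fin (2 ^ h) ⊕ (Fin h × Fin 3 × Fin (2 ^ h)) ⊕
      (Fin 59 × Fin (2 ^ h)) ⊕ (Grp h × Fin 4 × Fin (2 ^ h))) where
  toFun
    | Y i => .inl i
    | Z i => .inr (.inl i)
    | leaf x => .inr (.inr (.inl x))
    | core j k y => .inr (.inr (.inr (.inl (j, k, y))))
    | crown a i => .inr (.inr (.inr (.inr (.inl (a, i)))))
    | thr g θ i => .inr (.inr (.inr (.inr (.inr (g, θ, i)))))
  invFun
    | .inl i => Y i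
    | .inr (.inl i) => Z i
    | .inr (.inr (.inl x)) => leaf x
    | .inr (.inr (.inr (.inl (j, k, y)))) => core j k y
    | .inr (.inr (.inr (.inr (.inl (a, i))))) => crown a i
    | .inr (.inr (.inr (.inr (.inr (g, θ, i))))) => thr g θ i
  left_inv l := by cases l <;> rfl
  right_inv s := by
    rcases s with i | i | x | ⟨j, k, y⟩ | ⟨a, i⟩ | ⟨g, θ, i⟩ <;> rfl

instance : Fintype (Line h) := Fintype.ofEquiv _ equivSum.symm

theorem card : Fintype.card (Line h) = 2 ^ h * (66 + 19 * h) := by
  rw [Fintype.card_congr equivSum]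
  simp only [Fintype.card_sum, Fintype.card_prod, Fintype.card_fin, Grp.card]
  ring

end Line

open Line

/-! ### The base matrix -/

/-- The base matrix: `M r c` is the entry in row `r`, column `c`. -/
def M : Line h → Line h → Bool
  | .Y _, .Y _ => true
  | .Y _, .Z _ => true
  | .Y _, .leaf _ => true
  | .Y _, .core _ _ _ => true
  | .Y _, .crown _ _ => false
  | .Y _, .thr g θ _ => decide (thF g θ ≤ -1)
  | .Z _, .Y _ => true
  | .Z _, .Z _ => false
  | .Z _, .leaf _ => true
  | .Z _, .core _ _ _ => true
  | .Z _, .crown _ _ => false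
  | .Z _, .thr g θ _ => decide (g = Grp.bot ∧ θ.val = 0)
  | .leaf _, .Y _ => true
  | .leaf _, .Z _ => true
  | .leaf x, .leaf x' => nest (.leaf x : Line h) (.leaf x')
  | .leaf x, .core j k y => nest (.leaf x : Line h) (.core j k y)
  | .leaf _, .crown _ _ => false
  | .leaf _, .thr g θ _ => decide (thF g θ ≤ 0)
  | .core _ _ _, .Y _ => true
  | .core _ _ _, .Z _ => true
  | .core j k y, .leaf x => nest (.core j k y : Line h) (.leaf x)
  | .core j k y, .core j' k' y' => nest (.core j k y : Line h) (.core j' k' y')
  | .core _ _ _, .crown _ _ => false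
  | .core j k _, .thr g θ _ => decide (thF g θ ≤ 3 * (j.val : ℤ) + 1 + (k.val : ℤ))
  | .crown _ _, .Y _ => false
  | .crown _ _, .Z _ => false
  | .crown _ _, .leaf _ => false
  | .crown _ _, .core _ _ _ => false
  | .crown a _, .crown b _ => decide (a ≠ b)
  | .crown a _, .thr _ θ _ => decide (a.val = θ.val)
  | .thr g θ _, .Y _ => decide (thG g θ ≤ -1)
  | .thr g θ _, .Z _ => decide (g = Grp.bot ∧ θ.val = 0)
  | .thr g θ _, .leaf _ => decide (thG g θ ≤ 0)
  | .thr g θ _, .core j k _ => decide (thG g θ ≤ 3 * (j.val : ℤ) + 1 + (k.val : ℤ))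
  | .thr _ θ _, .crown b _ => decide (b.val = θ.val)
  | .thr g _ _, .thr g' _ _ => decide (g = g')

/-- Core kind of the lower bracket of side `s` (`Qs` for the left child, `Q0` for the right). -/
def kLo (s : Bool) : Fin 3 := if s then 1 else 0

/-- Core kind of the upper bracket of side `s` (`Q0` for the left child, `Q1` for the right). -/
def kHi (s : Bool) : Fin 3 := if s then 2 else 1

theorem kLo_val (s : Bool) : (kLo s).val = s.toNat := by cases s <;> rfl

theorem kHi_val (s : Bool) : (kHi s).val = s.toNat + 1 := by cases s <;> rfl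

/-! #### API for `M` (all by case analysis) -/

theorem M_pay_thr {p : Line h} (hp : p.isPay = true) (g : Grp h) (θ : Fin 4) (i : Fin (2 ^ h)) :
    M p (.thr g θ i) = decide (thF g θ ≤ p.rank) := by
  cases p <;> simp_all [M, isPay, rank]

theorem M_thr_pay {q : Line h} (hq : q.isPay = true) (g : Grp h) (θ : Fin 4) (i : Fin (2 ^ h)) :
    M (.thr g θ i) q = decide (thG g θ ≤ q.rank) := by
  cases q <;> simp_all [M, isPay, rank]

theorem M_pay_crown {p : Line h} (hp : p.isPay = true) (a : Fin 59) (i : Fin (2 ^ h)) :
    M p (.crown a i) = false := by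
  cases p <;> simp_all [M, isPay]

theorem M_crown_pay {q : Line h} (hq : q.isPay = true) (a : Fin 59) (i : Fin (2 ^ h)) :
    M (.crown a i) q = false := by
  cases q <;> simp_all [M, isPay]

theorem M_pay_Z {p : Line h} (hp : p.isPay = true) (i : Fin (2 ^ h)) : M p (.Z i) = true := by
  cases p <;> simp_all [M, isPay]

theorem M_Z_pay {q : Line h} (hq : q.isPay = true) (i : Fin (2 ^ h)) : M (.Z i) q = true := by
  cases q <;> simp_all [M, isPay]

theorem M_Y_pay {q : Line h} (hq : q.isPay = true) (i : Fin (2 ^ h)) : M (.Y i) q = true := by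
  cases q <;> simp_all [M, isPay]

theorem M_pay_Y {p : Line h} (hp : p.isPay = true) (i : Fin (2 ^ h)) : M p (.Y i) = true := by
  cases p <;> simp_all [M, isPay]

theorem M_tree_tree {p q : Line h} (hp : p.isTree = true) (hq : q.isTree = true) :
    M p q = nest p q := by
  cases p <;> cases q <;> simp_all [M, isTree]

theorem isPay_of_isTree {p : Line h} (hp : p.isTree = true) : p.isPay = true := by
  cases p <;> simp_all [isPay, isTree]

/-- The value of `M` on marker columns does not depend on the copy number of the column. -/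
theorem M_crown_col (r : Line h) (a : Fin 59) (i i' : Fin (2 ^ h)) :
    M r (.crown a i) = M r (.crown a i') := by
  cases r <;> rfl

theorem M_thr_col (r : Line h) (g : Grp h) (θ : Fin 4) (i i' : Fin (2 ^ h)) :
    M r (.thr g θ i) = M r (.thr g θ i') := by
  cases r <;> rfl

theorem M_Z_col (r : Line h) (i i' : Fin (2 ^ h)) : M r (.Z i) = M r (.Z i') := by
  cases r <;> rfl

theorem M_crown_row (c : Line h) (a : Fin 59) (i i' : Fin (2 ^ h)) :
    M (.crown a i) c = M (.crown a i') c := by
  cases c <;> rfl

theorem M_thr_row (c : Line h) (g : Grp h) (θ : Fin 4) (i i' : Fin (2 ^ h)) :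
    M (.thr g θ i) c = M (.thr g θ i') c := by
  cases c <;> rfl

theorem M_Z_row (c : Line h) (i i' : Fin (2 ^ h)) : M (.Z i) c = M (.Z i') c := by
  cases c <;> rfl

/-! ### The pattern -/

/-- The threshold code of the three payload roles: `s⁻ = 0 ↦ (1,1,0,0)`, `p1 = 1 ↦ (1,0,0,0)`,
`s⁺ = 2 ↦ (1,1,1,0)`. -/
def code (i θ : ℕ) : Bool :=
  if i = 0 then decide (θ ≤ 1) else if i = 1 then decide (θ = 0) else decide (θ ≤ 2)

/-- The fixed `66 × 66` pattern.  Indices `0, 1, 2` : payload roles `s⁻, p1, s⁺`
(columns `t⁻, q1, t⁺`); `3 + a` (`a < 59`) : crown; `62 + θ` (`θ < 4`) : thresholds. -/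
def Hpat (i j : Fin 66) : Bool :=
  if i.val < 3 then
    if j.val < 3 then !(decide (i.val = 1) && decide (j.val = 1))
    else if j.val < 62 then false
    else code i.val (j.val - 62)
  else if i.val < 62 then
    if j.val < 3 then false
    else if j.val < 62 then decide (i.val ≠ j.val)
    else decide (i.val - 3 = j.val - 62)
  else
    if j.val < 3 then code j.val (i.val - 62)
    else if j.val < 62 then decide (j.val - 3 = i.val - 62)
    else true


/-- Generates, in this module, the equation lemmas of the definitions above, so that the modules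
importing this one share a single copy of each instead of generating their own. -/
theorem eqns_realized : True := by
  have := @Grp.code.eq_1
  have := @Grp.code.eq_2
  have := @Grp.equivOption.eq_1
  have := @thT.eq_1
  have := @thA.eq_1
  have := @thBot.eq_1
  have := @thF.eq_1
  have := @thF.eq_2
  have := @thF.eq_3
  have := @thG.eq_1
  have := @thG.eq_2
  have := @thG.eq_3
  have := @Line.isPay.eq_1
  have := @Line.isPay.eq_2
  have := @Line.isPay.eq_3
  have := @Line.isPay.eq_4
  have := @Line.isTree.eq_1
  have := @Line.isTree.eq_2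
  have := @Line.isTree.eq_3
  have := @Line.rank.eq_1
  have := @Line.rank.eq_2
  have := @Line.rank.eq_3
  have := @Line.rank.eq_4
  have := @Line.lvl.eq_1
  have := @Line.lvl.eq_2
  have := @Line.pos.eq_1
  have := @Line.pos.eq_2
  have := @Line.pos.eq_3
  have := @Line.nest.eq_1
  have := @Line.k1.eq_1
  have := @Line.k1.eq_2
  have := @Line.k1.eq_3
  have := @Line.k1.eq_4
  have := @Line.k1.eq_5
  have := @Line.k1.eq_6
  have := @Line.k2.eq_1
  have := @Line.k2.eq_2
  have := @Line.k2.eq_3
  have := @Line.k2.eq_4
  have := @Line.k2.eq_5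
  have := @Line.k2.eq_6
  have := @Line.k3.eq_1
  have := @Line.k3.eq_2
  have := @Line.k3.eq_3
  have := @Line.k3.eq_4
  have := @Line.k3.eq_5
  have := @Line.k3.eq_6
  have := @Line.k4.eq_1
  have := @Line.k4.eq_2
  have := @Line.k4.eq_3
  have := @Line.k4.eq_4
  have := @Line.k4.eq_5
  have := @Line.k4.eq_6
  have := @Line.key.eq_1
  have := @Line.equivSum.eq_1
  have := @M.eq_1
  have := @M.eq_2
  have := @M.eq_3
  have := @M.eq_4
  have := @M.eq_5
  have := @M.eq_6
  have := @M.eq_7
  have := @M.eq_8
  have := @M.eq_9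
  have := @M.eq_10
  have := @M.eq_11
  have := @M.eq_12
  have := @M.eq_13
  have := @M.eq_14
  have := @M.eq_15
  have := @M.eq_16
  have := @M.eq_17
  have := @M.eq_18
  have := @M.eq_19
  have := @M.eq_20
  have := @M.eq_21
  have := @M.eq_22
  have := @M.eq_23
  have := @M.eq_24
  have := @M.eq_25
  have := @M.eq_26
  have := @M.eq_27
  have := @M.eq_28
  have := @M.eq_29
  have := @M.eq_30
  have := @M.eq_31
  have := @M.eq_32
  have := @M.eq_33
  have := @M.eq_34
  have := @M.eq_35
  have := @M.eq_36
  have := @kLo.eq_1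
  have := @kHi.eq_1
  have := @code.eq_1
  have := @Hpat.eq_1
  trivial

end Crest.Agent.Helper5.S0066
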