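/-
S0066 (row 47) — predicates used in the farness half of the proof (architect: helper5).
No `sorry` here.  Blueprint: `notes/s0066_blueprint.md`.
-/
import Crest.Agent.Helper5.S0066.Defs

set_option autoImplicit false

namespace Crest.Agent.Helper5.S0066

open Line

variable {h : ℕ}

/-- `B` contains no ordered copy of the pattern (at the level of line descriptors). -/
def HFree (B : Line h → Line h → Bool) : Prop :=
  ∀ r c : Fin 66 → Line h, StrictMono r → StrictMono c → ¬ ∀ a b, B (r a) (c b) = Hpat a b

/-- The cells where `B` differs from the base matrix `M`. -/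
noncomputable def diffSet (B : Line h → Line h → Bool) : Finset (Line h × Line h) :=
  Finset.univ.filter fun p => M p.1 p.2 ≠ B p.1 p.2

/-- The marker lines with copy number `i`. -/
def IsMark (i : Fin (2 ^ h)) (l : Line h) : Prop :=
  l = Z i ∨ (∃ a, l = crown a i) ∨ ∃ g θ, l = thr g θ i

/-- The sampled marker × marker cells are unchanged. -/
def MMclean (B : Line h → Line h → Bool) (i i' : Fin (2 ^ h)) : Prop :=
  ∀ m m', IsMark i m → IsMark i' m' → B m m' = M m m'

/-- A payload row all of whose cells against the sampled marker columns are unchanged. -/
def GoodRow (B : Line h → Line h → Bool) (i' : Fin (2 ^ h)) (p : Line h) : Prop :=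
  p.isPay = true ∧ ∀ m', IsMark i' m' → B p m' = M p m'

/-- A payload column all of whose cells against the sampled marker rows are unchanged. -/
def GoodCol (B : Line h → Line h → Bool) (i : Fin (2 ^ h)) (q : Line h) : Prop :=
  q.isPay = true ∧ ∀ m, IsMark i m → B m q = M m q

/-- `l` is a tree line whose class is contained in the class number `c` of level `L`
(the leaves `x` with `x / 2 ^ L = c`). -/
def InCls (L c : ℕ) (l : Line h) : Prop :=
  l.isTree = true ∧ l.lvl ≤ L ∧ l.pos / 2 ^ L = c

open Classical in
/-- The payload rows that are not good. -/
noncomputable def badRows (B : Line h → Line h → Bool) (i' : Fin (2 ^ h)) : Finset (Line h) :=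
  Finset.univ.filter fun p => p.isPay = true ∧ ¬ GoodRow B i' p

open Classical in
/-- The payload columns that are not good. -/
noncomputable def badCols (B : Line h → Line h → Bool) (i : Fin (2 ^ h)) : Finset (Line h) :=
  Finset.univ.filter fun q => q.isPay = true ∧ ¬ GoodCol B i q

open Classical in
/-- The leaves both of whose lines are good and whose diagonal cell has been deleted. -/
noncomputable def X0 (B : Line h → Line h → Bool) (i i' : Fin (2 ^ h)) : Finset (Fin (2 ^ h)) :=
  Finset.univ.filter fun x =>
    GoodRow B i' (leaf x) ∧ GoodCol B i (leaf x) ∧ B (leaf x) (leaf x) = false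


/-- Generates, in this module, the equation lemmas of the definitions above (see `eqns_realized`). -/
theorem farEqns_realized : True := by
  have := @X0.eq_1
  have := @IsMark.eq_1
  have := @GoodRow.eq_1
  have := @diffSet.eq_1
  have := @GoodCol.eq_1
  have := @InCls.eq_1
  have := @badCols.eq_1
  have := @badRows.eq_1
  have := @HFree.eq_1
  have := @MMclean.eq_1
  trivial

end Crest.Agent.Helper5.S0066
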