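/-
S0066 (row 47) — final assembly (helper5).

`final` is the frozen statement, obtained through helper60's reduction `s0066_of_base` from
* `rigid`  : every weakly monotone copy of `Hpat` in the base matrix `M` is tied
             (helper45 `rigid_core`, helper33 `rigid_crown / rigid_thr / rigid_pay`,
              helper52 `between_imp`, and through them helper76 / helper4 / helper81),
* `far`    : every `Hpat`-free `B` differs from `M` in at least `4 ^ h / 16` cells
             (helper2 `far_of_bottom`, helper72 `bottom`, and through them helper31, helper32,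
              helper52, helper60, helper81),
* four facts on the pattern (helper71).
-/
import Crest.Agent.Helper60.OrdMat.Reduce
import Crest.Agent.Helper5.S0066.FarDefs
import Crest.Agent.Helper45.S0066.R3Core
import Crest.Agent.Helper33.S0066.R1c
import Crest.Agent.Helper52.S0066.L1
import Crest.Agent.Helper2.S0066.FarBottom
import Crest.Agent.Helper72.S0066.F2
import Crest.Agent.Helper71.S0066.HP

set_option autoImplicit false

namespace Crest.Agent.Helper5.S0066

open Line Crest.CombinatoricsR.OrderedMatrix

variable {h : ℕ}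

/-- **Rigidity.** Every weakly monotone copy of the pattern in the base matrix is tied. -/
theorem rigid (r c : Fin 66 → Line h) (hr : Monotone r) (hc : Monotone c)
    (hM : ∀ i j, M (r i) (c j) = Hpat i j) :
    ∃ (x : Fin (2 ^ h)) (u : Fin (2 ^ h)), r 2 = leaf x ∧ c 2 = leaf x ∧ r 0 = Y u := by
  have hcr := Crest.Agent.Helper33.S0066.rigid_crown r c hr hc hM
  exact Crest.Agent.Helper45.S0066.rigid_core r c hr hc hM
    (Crest.Agent.Helper33.S0066.rigid_thr r c hM hcr)
    (Crest.Agent.Helper33.S0066.rigid_pay r c hM hcr)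
    Crest.Agent.Helper52.S0066.between_imp

/-- **Farness** of the base matrix. -/
theorem far (hh : 1 ≤ h) (B : Line h → Line h → Bool) (hfree : HFree B) :
    4 ^ h ≤ 16 * (diffSet B).card :=
  Crest.Agent.Helper2.S0066.far_of_bottom hh B hfree
    (fun hE i i' hmm hbad => Crest.Agent.Helper72.S0066.bottom B hfree hE i i' hmm hbad)

/-- The order isomorphism between positions and line descriptors. -/
noncomputable def enum (h : ℕ) : Fin (2 ^ h * (66 + 19 * h)) ≃o Line h :=
  Fintype.orderIsoFinOfCardEq (Line h) Line.card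

/-- The base matrix on positions. -/
noncomputable def A0 (h : ℕ) : Fin (2 ^ h * (66 + 19 * h)) → Fin (2 ^ h * (66 + 19 * h)) → Bool :=
  fun i j => M (enum h i) (enum h j)

/-- The tied cells. -/
noncomputable def Zset (h : ℕ) :
    Finset (Fin (2 ^ h * (66 + 19 * h)) × Fin (2 ^ h * (66 + 19 * h))) :=
  Finset.univ.image fun x : Fin (2 ^ h) => ((enum h).symm (leaf x), (enum h).symm (leaf x))

theorem hbase (h : ℕ) (hh : 1 ≤ h) :
    ∃ (m t d : ℕ) (A' : Fin m → Fin m → Bool) (Z' : Finset (Fin m × Fin m)),
      m * t ≤ (386 * h + 2) * 2 ^ h ∧ t * t * Z'.card ≤ 16 * 2 ^ h ∧ 4 ^ h ≤ t * t * d ∧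
      (∀ rows cols : Fin 66 → Fin m, StrictMono rows → StrictMono cols →
        (∀ i j, A' (rows i) (cols j) = Hpat i j) → (rows 2, cols 2) ∈ Z') ∧
      (∀ B' : Fin m → Fin m → Bool, orderedCopyCount Hpat B' = 0 →
        d ≤ (Finset.univ.filter (fun rc : Fin m × Fin m => A' rc.1 rc.2 ≠ B' rc.1 rc.2)).card) := by
  refine ⟨2 ^ h * (66 + 19 * h), 4, (4 ^ h + 15) / 16, A0 h, Zset h, ?_, ?_, ?_, ?_, ?_⟩
  · have h2 : 0 < 2 ^ h := by positivity
    nlinarith
  · have hcard : (Zset h).card ≤ 2 ^ h := by
      unfold Zset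
      calc _ ≤ (Finset.univ : Finset (Fin (2 ^ h))).card := Finset.card_image_le
        _ = 2 ^ h := by simp
    omega
  · omega
  · intro rows cols hrows hcols hcopy
    have hr : Monotone fun i => enum h (rows i) :=
      fun i j hij => (enum h).monotone (hrows.monotone hij)
    have hc : Monotone fun i => enum h (cols i) :=
      fun i j hij => (enum h).monotone (hcols.monotone hij)
    obtain ⟨x, u, h2, h2', -⟩ := rigid (fun i => enum h (rows i)) (fun i => enum h (cols i))
      hr hc (fun i j => hcopy i j)
    unfold Zset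
    rw [Finset.mem_image]
    refine ⟨x, Finset.mem_univ _, ?_⟩
    have e1 : (enum h).symm (leaf x) = rows 2 := by rw [← h2]; simp
    have e2 : (enum h).symm (leaf x) = cols 2 := by rw [← h2']; simp
    rw [Prod.mk.injEq]
    exact ⟨e1, e2⟩
  · intro B' hB'
    rw [Crest.Agent.Helper60.OrdMat.orderedCopyCount_eq_zero_iff] at hB'
    -- transfer to line descriptors
    set B : Line h → Line h → Bool := fun l l' => B' ((enum h).symm l) ((enum h).symm l') with hB
    have hfree : HFree B := by
      intro r c hr hc hcopy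
      refine hB' (fun i => (enum h).symm (r i)) (fun i => (enum h).symm (c i))
        (fun i j hij => (enum h).symm.strictMono (hr hij))
        (fun i j hij => (enum h).symm.strictMono (hc hij)) ?_
      intro i j
      exact hcopy i j
    have hfar := far hh B hfree
    have hcard : (diffSet B).card =
        (Finset.univ.filter (fun rc : Fin (2 ^ h * (66 + 19 * h)) × Fin (2 ^ h * (66 + 19 * h)) =>
          A0 h rc.1 rc.2 ≠ B' rc.1 rc.2)).card := by
      unfold diffSet
      refine Finset.card_bij (fun p _ => ((enum h).symm p.1, (enum h).symm p.2)) ?_ ?_ ?_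
      · intro p hp
        simp only [Finset.mem_filter, Finset.mem_univ, true_and] at hp ⊢
        simpa [A0, hB] using hp
      · intro p _ q _ hpq
        simp only [Prod.mk.injEq, EmbeddingLike.apply_eq_iff_eq] at hpq
        exact Prod.ext hpq.1 hpq.2
      · intro q hq
        refine ⟨(enum h q.1, enum h q.2), ?_, by simp⟩
        simp only [Finset.mem_filter, Finset.mem_univ, true_and] at hq ⊢
        simpa [A0, hB] using hq
    rw [hcard] at hfar
    omega

/-- The frozen statement S0066. -/
theorem final :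
    ∃ H : Fin 66 → Fin 66 → Bool, ∀ h : ℕ, 1 ≤ h →
      ∃ A : Fin ((386 * h + 2) * 2 ^ h) → Fin ((386 * h + 2) * 2 ^ h) → Bool,
        (∀ B : Fin ((386 * h + 2) * 2 ^ h) → Fin ((386 * h + 2) * 2 ^ h) → Bool,
          Crest.CombinatoricsR.OrderedMatrix.orderedCopyCount H B = 0 →
            ((386 * (h : ℝ) + 2) ^ 2)⁻¹ * (((386 * h + 2) * 2 ^ h : ℕ) : ℝ) ^ 2 ≤
              ((Finset.univ.filter (fun rc : Fin ((386 * h + 2) * 2 ^ h) × Fin ((386 * h + 2) * 2 ^ h) =>
                A rc.1 rc.2 ≠ B rc.1 rc.2)).card : ℝ)) ∧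
        (Crest.CombinatoricsR.OrderedMatrix.orderedCopyCount H A : ℝ) /
            (((386 * h + 2) * 2 ^ h : ℕ) : ℝ) ^ 132 ≤
          ((386 * (h : ℝ) + 2) ^ 2)⁻¹ * (2 : ℝ)⁻¹ ^ h :=
  Crest.Agent.Helper60.OrdMat.s0066_of_base Hpat false 2 2
    Crest.Agent.Helper71.S0066.Hpat_row Crest.Agent.Helper71.S0066.Hpat_col
    Crest.Agent.Helper71.S0066.Hpat_rows_distinct Crest.Agent.Helper71.S0066.Hpat_cols_distinct
    16 (by norm_num)
    (by
      have : 16 ≤ Nat.factorial 65 := by
        calc 16 ≤ 65 := by norm_num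
          _ ≤ Nat.factorial 65 := Nat.self_le_factorial 65
      have h1 : 1 ≤ Nat.factorial 65 := Nat.one_le_iff_ne_zero.mpr (Nat.factorial_ne_zero 65)
      nlinarith)
    hbase

end Crest.Agent.Helper5.S0066
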