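/-
S0066 (row 47) — INTERFACE (architect: helper5).  Every statement below is a work package;
all bodies are `sorry`.  THIS FILE IS NEVER LANDED AS A DEPENDENCY OF A GRADED FILE: package
owners prove the statement VERBATIM in their own module/namespace
(`Crest/Agent/<Seat>/S0066/<Pkg>.lean`, namespace `Crest.Agent.<Seat>.S0066`), importing only
`Crest.Agent.Helper5.S0066.Defs` / `FarDefs` (+ other owners' finished modules).
While a dependency is not yet landed, cite it from here as `Spec.foo`.

Blueprint with the mathematics: `notes/s0066_blueprint.md`.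
-/
import Crest.Prelude.Def_OrderedMatrix
import Crest.Agent.Helper5.S0066.FarDefs

set_option autoImplicit false

namespace Crest.Agent.Helper5.S0066.Spec

open Crest.Agent.Helper5.S0066 Line
open Crest.CombinatoricsR

variable {h : ℕ}

/-! ## Package L — layout (order) lemmas -/

theorem Y_lt_Z (i i' : Fin (2 ^ h)) : (Y i : Line h) < Z i' := sorry

theorem Y_lt_tree (i : Fin (2 ^ h)) {l : Line h} (hl : l.isTree = true) : Y i < l := sorry

theorem Z_lt_tree (i : Fin (2 ^ h)) {l : Line h} (hl : l.isTree = true) : Z i < l := sorry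

theorem tree_lt_crown {l : Line h} (hl : l.isTree = true) (a : Fin 59) (i : Fin (2 ^ h)) :
    l < crown a i := sorry

theorem crown_lt_crown {a b : Fin 59} (hab : a < b) (i i' : Fin (2 ^ h)) :
    (crown a i : Line h) < crown b i' := sorry

theorem crown_lt_thr (a : Fin 59) (i : Fin (2 ^ h)) (g : Grp h) (θ : Fin 4) (i' : Fin (2 ^ h)) :
    crown a i < thr g θ i' := sorry

theorem thr_lt_thr (g : Grp h) {θ θ' : Fin 4} (hθ : θ < θ') (i i' : Fin (2 ^ h)) :
    thr g θ i < thr g θ' i' := sorry

/-- weak monotonicity between crown lines gives weak monotonicity of the crown index -/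
theorem crown_le_crown {a b : Fin 59} {i i' : Fin (2 ^ h)}
    (hle : (crown a i : Line h) ≤ crown b i') : a ≤ b := sorry

/-- **L1** (used by rigidity).  A tree line of rank below the lower bracket that lies (weakly)
between a `kLo s`-core and a `kHi s`-core of one class `c` of level `j + 1` belongs to the
subtree of the child `2 c + s` (a class of level `j`). -/
theorem between_imp {j : Fin h} {s : Bool} {y y' : Fin (2 ^ h)} {l : Line h}
    (hyy : y.val / 2 ^ (j.val + 1) = y'.val / 2 ^ (j.val + 1))
    (hl : l.isTree = true) (hrank : l.rank < 3 * (j.val : ℤ) + 1 + (s.toNat : ℤ))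
    (h1 : core j (kLo s) y ≤ l) (h2 : l ≤ core j (kHi s) y') :
    l.lvl ≤ j.val ∧ l.pos / 2 ^ j.val = 2 * (y.val / 2 ^ (j.val + 1)) + s.toNat := sorry

/-- **L2** (used by farness).  Conversely every tree line of the subtree of the child `2 c + s`
lies strictly between the `kLo s`-cores and the `kHi s`-cores of the class `c`. -/
theorem between_of {j : Fin h} {s : Bool} {y y' : Fin (2 ^ h)} {l : Line h}
    (hyy : y.val / 2 ^ (j.val + 1) = y'.val / 2 ^ (j.val + 1))
    (hl : l.isTree = true) (hlvl : l.lvl ≤ j.val)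
    (hpos : l.pos / 2 ^ j.val = 2 * (y.val / 2 ^ (j.val + 1)) + s.toNat) :
    core j (kLo s) y < l ∧ l < core j (kHi s) y' := sorry

/-! ## Package R — rigidity: every (weakly monotone) copy of `Hpat` in `M` is tied -/

/-- **R1a.** Payload × payload contains no 3-crown. -/
theorem pay_no_crown3 (R C : Fin 3 → Line h) (hR : ∀ a, (R a).isPay = true)
    (hC : ∀ a, (C a).isPay = true) (hM : ∀ a b, M (R a) (C b) = decide (a ≠ b)) : False := sorry

/-- **R1a.** Marker rows × payload columns contain no 2-crown (neighbourhoods are nested). -/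
theorem mark_pay_nested (R C : Fin 2 → Line h) (hR : ∀ a, (R a).isPay = false)
    (hC : ∀ a, (C a).isPay = true) (hM : ∀ a b, M (R a) (C b) = decide (a ≠ b)) : False := sorry

/-- **R1a.** Payload rows × marker columns contain no 2-crown. -/
theorem pay_mark_nested (R C : Fin 2 → Line h) (hR : ∀ a, (R a).isPay = true)
    (hC : ∀ a, (C a).isPay = false) (hM : ∀ a b, M (R a) (C b) = decide (a ≠ b)) : False := sorry

/-- **R1b.** All lines of a 59-crown of `M` are crown lines. -/
theorem crown_lines (R C : Fin 59 → Line h) (hM : ∀ a b, M (R a) (C b) = decide (a ≠ b)) (a : Fin 59) :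
    (∃ ρ i, R a = crown ρ i) ∧ (∃ γ i, C a = crown γ i) := sorry

/-- **R1c.** In a copy, the crown rows / columns of the pattern sit on the crown lines with the
same index. -/
theorem rigid_crown (r c : Fin 66 → Line h) (hr : Monotone r) (hc : Monotone c)
    (hM : ∀ i j, M (r i) (c j) = Hpat i j) (a : Fin 59) :
    (∃ i, r ⟨3 + a.val, by omega⟩ = crown a i) ∧ (∃ i, c ⟨3 + a.val, by omega⟩ = crown a i) :=
  sorry

/-- **R2.** The threshold rows / columns of the pattern sit on the threshold lines of ONE group. -/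
theorem rigid_thr (r c : Fin 66 → Line h) (hM : ∀ i j, M (r i) (c j) = Hpat i j)
    (hcr : ∀ a : Fin 59, (∃ i, r ⟨3 + a.val, by omega⟩ = crown a i) ∧
      (∃ i, c ⟨3 + a.val, by omega⟩ = crown a i)) :
    ∃ g : Grp h, (∀ θ : Fin 4, ∃ i, r ⟨62 + θ.val, by omega⟩ = thr g θ i) ∧
      (∀ θ : Fin 4, ∃ i, c ⟨62 + θ.val, by omega⟩ = thr g θ i) := sorry

/-- **R2.** The three payload roles sit on payload lines or on `Z`. -/
theorem rigid_pay (r c : Fin 66 → Line h) (hM : ∀ i j, M (r i) (c j) = Hpat i j)
    (hcr : ∀ a : Fin 59, (∃ i, r ⟨3 + a.val, by omega⟩ = crown a i) ∧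
      (∃ i, c ⟨3 + a.val, by omega⟩ = crown a i)) (k : Fin 3) :
    ((r ⟨k.val, by omega⟩).isPay = true ∨ ∃ i, r ⟨k.val, by omega⟩ = Z i) ∧
    ((c ⟨k.val, by omega⟩).isPay = true ∨ ∃ i, c ⟨k.val, by omega⟩ = Z i) := sorry

/-- **R3 = the rigidity theorem.** -/
theorem rigid (r c : Fin 66 → Line h) (hr : Monotone r) (hc : Monotone c)
    (hM : ∀ i j, M (r i) (c j) = Hpat i j) :
    ∃ (x : Fin (2 ^ h)) (u : Fin (2 ^ h)), r 2 = leaf x ∧ c 2 = leaf x ∧ r 0 = Y u := sorry

/-! ## Package F — farness -/

/-- **F0.** Bottom rule. -/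
theorem rule_bot (B : Line h → Line h → Bool) (hfree : HFree B) (i i' : Fin (2 ^ h))
    (hmm : MMclean B i i') {u u' x : Fin (2 ^ h)}
    (hu : GoodRow B i' (Y u)) (hu' : GoodCol B i (Y u'))
    (hx : GoodRow B i' (leaf x)) (hx' : GoodCol B i (leaf x))
    (hxx : B (leaf x) (leaf x) = true) :
    B (Y u) (Y u') = false ∨ B (Y u) (leaf x) = false ∨ B (leaf x) (Y u') = false := sorry

/-- **F0.** Level rule at the class `c` of level `j + 1`, child `2 c + s`
(`anyT = false`: `p` top-layer of the child, `q` anywhere in its subtree; `anyT = true`: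
the other way round). -/
theorem rule_lvl (B : Line h → Line h → Bool) (hfree : HFree B) (i i' : Fin (2 ^ h))
    (hmm : MMclean B i i') (anyT : Bool) (j : Fin h) (s : Bool) (c : ℕ)
    {yu yw yu' yw' : Fin (2 ^ h)}
    (hyu : yu.val / 2 ^ (j.val + 1) = c) (hyw : yw.val / 2 ^ (j.val + 1) = c)
    (hyu' : yu'.val / 2 ^ (j.val + 1) = c) (hyw' : yw'.val / 2 ^ (j.val + 1) = c)
    (hu : GoodRow B i' (core j (kLo s) yu)) (hw : GoodRow B i' (core j (kHi s) yw))
    (hu' : GoodCol B i (core j (kLo s) yu')) (hw' : GoodCol B i (core j (kHi s) yw'))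
    {p q : Line h} (hp : GoodRow B i' p) (hq : GoodCol B i q)
    (hpc : InCls j.val (2 * c + s.toNat) p) (hqc : InCls j.val (2 * c + s.toNat) q)
    (htop : if anyT = true then q.lvl = j.val else p.lvl = j.val)
    (hpq : B p q = false) :
    B (core j (kLo s) yu) (core j (kLo s) yu') = false ∨ B (core j (kLo s) yu) q = false ∨
    B (core j (kLo s) yu) (core j (kHi s) yw') = false ∨ B p (core j (kLo s) yu') = false ∨
    B p (core j (kHi s) yw') = false ∨ B (core j (kHi s) yw) (core j (kLo s) yu') = false ∨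
    B (core j (kHi s) yw) q = false ∨ B (core j (kHi s) yw) (core j (kHi s) yw') = false := sorry

/-- **F1.** Sampling: if fewer than `4^h / 16` cells were changed, some aligned choice of marker
copies `(i, i')` is clean and sees fewer than `2^h / 16` bad payload lines. -/
theorem exists_sample (B : Line h → Line h → Bool) (hE : 16 * (diffSet B).card < 4 ^ h) :
    ∃ i i' : Fin (2 ^ h), MMclean B i i' ∧
      16 * ((badRows B i').card + (badCols B i).card) < 2 ^ h := sorry

/-- **F2.** Bottom step: more than `13/16` of the leaves are good with a deleted diagonal cell. -/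
theorem bottom (B : Line h → Line h → Bool) (hfree : HFree B)
    (hE : 16 * (diffSet B).card < 4 ^ h) (i i' : Fin (2 ^ h)) (hmm : MMclean B i i')
    (hbad : 16 * ((badRows B i').card + (badCols B i).card) < 2 ^ h) :
    13 * 2 ^ h < 16 * (X0 B i i').card := sorry

open Classical in
/-- **F3.** The cascade (vertex-cover induction on the level `L`).  If `(Cr, Cc)` covers all
deleted good cells of the hook of the class `c` of level `L`, then it has at least as many lines
in the subtree as there are `X0`-leaves in the class, up to the bad lines of the subtree. -/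
theorem cascade (B : Line h → Line h → Bool) (hfree : HFree B) (i i' : Fin (2 ^ h))
    (hmm : MMclean B i i') (L : ℕ) (hL : L ≤ h) (c : ℕ) (Cr Cc : Finset (Line h))
    (hcov : ∀ p q : Line h, GoodRow B i' p → GoodCol B i q → InCls L c p → InCls L c q →
      (p.lvl = L ∨ q.lvl = L) → B p q = false → p ∈ Cr ∨ q ∈ Cc) :
    ((X0 B i i').filter fun x => x.val / 2 ^ L = c).card ≤
      (Cr.filter fun p => InCls L c p).card + (Cc.filter fun q => InCls L c q).card +
      ((badRows B i').filter fun p => InCls L c p).card +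
      ((badCols B i).filter fun q => InCls L c q).card := sorry

/-- **F4a.** Disjoint 4-cycles: if every 4-cycle `u — u' — w — w'` meets `D`, then `|D| ≥ m²`. -/
theorem four_cycle_count {α β : Type*} [DecidableEq α] [DecidableEq β]
    (U W : Finset α) (U' W' : Finset β) (hUW : Disjoint U W) (hUW' : Disjoint U' W') (m : ℕ)
    (hU : m ≤ U.card) (hW : m ≤ W.card) (hU' : m ≤ U'.card) (hW' : m ≤ W'.card)
    (D : Finset (α × β))
    (hD : ∀ u ∈ U, ∀ w ∈ W, ∀ u' ∈ U', ∀ w' ∈ W',
      (u, u') ∈ D ∨ (u, w') ∈ D ∨ (w, u') ∈ D ∨ (w, w') ∈ D) :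
    m * m ≤ D.card := sorry

/-- **F4 = the farness theorem** for the base matrix. -/
theorem far (hh : 1 ≤ h) (B : Line h → Line h → Bool) (hfree : HFree B) :
    4 ^ h ≤ 16 * (diffSet B).card := sorry

/-! ## Package HP — four facts about the pattern (inputs of helper60's `s0066_of_base`) -/

theorem Hpat_row (i : Fin 66) : ∃ j, Hpat i j ≠ false := sorry

theorem Hpat_col (j : Fin 66) : ∃ i, Hpat i j ≠ false := sorry

theorem Hpat_rows_distinct (p p' : Fin 66) (hpp : p < p') : ∃ q, Hpat p q ≠ Hpat p' q := sorry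

theorem Hpat_cols_distinct (q q' : Fin 66) (hqq : q < q') : ∃ p, Hpat p q ≠ Hpat p q' := sorry

/-! ## Package G — generic counting lemmas: SUPERSEDED by helper60's landed glue
(`Crest.Agent.Helper60.OrdMat.s0066_of_base`); kept only for reference, nobody needs to prove them. -/

/-- **G1.** If every copy is "tied" (`f 2` and `g 2` in a common small set `T x`, `f 0` in a small
set `TY`), then there are few copies. -/
theorem count_le_of_tied {n N : ℕ} (A : Fin n → Fin n → Bool) (H : Fin 66 → Fin 66 → Bool)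
    (T : Fin N → Finset (Fin n)) (TY : Finset (Fin n))
    (hT : ∀ x, (T x).card ≤ 4) (hTY : TY.card ≤ 4 * N)
    (htied : ∀ f g : Fin 66 → Fin n, StrictMono f → StrictMono g →
      (∀ i j, A (f i) (g j) = H i j) → ∃ x, f 2 ∈ T x ∧ g 2 ∈ T x ∧ f 0 ∈ TY) :
    OrderedMatrix.orderedCopyCount H A ≤ 64 * N ^ 2 * n ^ 129 := sorry

/-- **G2.** Blow-up by 4 (twins adjacent) and padding: farness `d / 16` of the base matrix gives
farness `d` of the blown-up matrix. -/
theorem far_blowup {α : Type*} [Fintype α] [LinearOrder α] {k n n0 : ℕ}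
    (H : Fin k → Fin k → Bool) (M0 : α → α → Bool) (d : ℕ)
    (hfar : ∀ B0 : α → α → Bool,
      (∀ r c : Fin k → α, StrictMono r → StrictMono c → ¬ ∀ a b, B0 (r a) (c b) = H a b) →
        d ≤ 16 * (Finset.univ.filter fun p : α × α => M0 p.1 p.2 ≠ B0 p.1 p.2).card)
    (e : Fin n0 ≃o α) (hn : 4 * n0 ≤ n) (A : Fin n → Fin n → Bool)
    (hA : ∀ (i j : Fin n) (hi : i.val / 4 < n0) (hj : j.val / 4 < n0),
      A i j = M0 (e ⟨i.val / 4, hi⟩) (e ⟨j.val / 4, hj⟩))
    (B : Fin n → Fin n → Bool) (hB : OrderedMatrix.orderedCopyCount H B = 0) :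
    d ≤ (Finset.univ.filter fun p : Fin n × Fin n => A p.1 p.2 ≠ B p.1 p.2).card := sorry

end Crest.Agent.Helper5.S0066.Spec
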